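import Mathlib
import Vale.Agent.H79.Quad
import Vale.Agent.H79.WHom
import Vale.Agent.H79.MultiXOne

/-!
# P295: three classes of stable coordinates that are coordinates, in one statement

Write `R_n = ℂ[x_1, …, x_n]`.  A polynomial `f` of a polynomial ring `S` over `ℂ` is a coordinate
of `S` when some `ℂ`-algebra automorphism of `S` sends a variable to `f`; it is an `m`-stable
coordinate when it is a coordinate of `S[w_1, …, w_m]` (variables indexed by a sum type whose
right summand is `Fin m`; `f` is viewed there via `rename Sum.inl`).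

1. Every `m`-stable coordinate of `R_n` of total degree at most `2` is a coordinate of `R_n`.
2. Every `m`-stable coordinate of `R_n` that is weighted homogeneous for some positive integer
   weights is a coordinate of `R_n`.
3. Let `a, P ∈ ℂ[x_1, …, x_n]` with `a ≠ 0`, `a ∣ P^r` and `a(x₀) = 0` for some point `x₀`, let
   `g ∈ ℂ[z_1, …, z_k]` have total degree at most two or let `k = 1`, and let `h ∈ ℂ[x, z]` be
   arbitrary.  If `f = a(x) y + g(z) + P(x) h(x, z)` is an `M`-stable coordinate of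
   `R = ℂ[x, z, y]` (variables indexed by `Option (Fin n ⊕ Fin k)`: `y = X none`,
   `x_i = X (some (inl i))`, `z_j = X (some (inr j))`), then `g` is a coordinate of
   `ℂ[z_1, …, z_k]` and `f` is a coordinate of `R`.

These are the statements of the hand-ins `A_Deg2StableCoord`, `B_WHomStableCoord` and
`C00_MultiXOneZStableCoord` of this folder.
-/

namespace Vale.Agent.Results.P295.A0_ThreeClasses

open MvPolynomial

theorem result :
    (∀ (n m : ℕ) (f : MvPolynomial (Fin n) ℂ), f.totalDegree ≤ 2 →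
      ∀ (φ : MvPolynomial (Fin n ⊕ Fin m) ℂ ≃ₐ[ℂ] MvPolynomial (Fin n ⊕ Fin m) ℂ)
        (j : Fin n ⊕ Fin m), φ (X j) = rename Sum.inl f →
        ∃ (ψ : MvPolynomial (Fin n) ℂ ≃ₐ[ℂ] MvPolynomial (Fin n) ℂ) (i : Fin n),
          ψ (X i) = f) ∧
    (∀ (n m : ℕ) (w : Fin n → ℕ), (∀ i, 0 < w i) →
      ∀ (d : ℕ) (f : MvPolynomial (Fin n) ℂ), IsWeightedHomogeneous w f d →
      ∀ (φ : MvPolynomial (Fin n ⊕ Fin m) ℂ ≃ₐ[ℂ] MvPolynomial (Fin n ⊕ Fin m) ℂ)
        (j : Fin n ⊕ Fin m), φ (X j) = rename Sum.inl f →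
        ∃ (ψ : MvPolynomial (Fin n) ℂ ≃ₐ[ℂ] MvPolynomial (Fin n) ℂ) (i : Fin n),
          ψ (X i) = f) ∧
    (∀ (n k M r : ℕ) (a P : MvPolynomial (Fin n) ℂ), a ≠ 0 → a ∣ P ^ r →
      ∀ (x₀ : Fin n → ℂ), eval x₀ a = 0 →
      ∀ (g : MvPolynomial (Fin k) ℂ), (g.totalDegree ≤ 2 ∨ k = 1) →
      ∀ (h : MvPolynomial (Fin n ⊕ Fin k) ℂ)
        (φ : MvPolynomial (Option (Fin n ⊕ Fin k) ⊕ Fin M) ℂ ≃ₐ[ℂ]
          MvPolynomial (Option (Fin n ⊕ Fin k) ⊕ Fin M) ℂ)
        (j : Option (Fin n ⊕ Fin k) ⊕ Fin M),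
        φ (X j) = rename Sum.inl (rename some (rename Sum.inl a) * X none
          + rename some (rename Sum.inr g + rename Sum.inl P * h)) →
        (∃ (θ : MvPolynomial (Fin k) ℂ ≃ₐ[ℂ] MvPolynomial (Fin k) ℂ) (i₀ : Fin k),
          θ (X i₀) = g) ∧
        ∃ (ψ : MvPolynomial (Option (Fin n ⊕ Fin k)) ℂ ≃ₐ[ℂ]
            MvPolynomial (Option (Fin n ⊕ Fin k)) ℂ) (i : Option (Fin n ⊕ Fin k)),
          ψ (X i) = rename some (rename Sum.inl a) * X none
            + rename some (rename Sum.inr g + rename Sum.inl P * h)) :=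
  ⟨fun _ _ f hdeg φ j hφ =>
      Vale.Agent.H79.exists_equiv_of_totalDegree_le_two f hdeg
        (Vale.Agent.H79.exists_pderiv_eval_ne_zero_of_stable f φ j hφ),
    fun _ _ w hw d f hf φ j hφ =>
      Vale.Agent.H79.exists_equiv_of_isWeightedHomogeneous w hw d f hf
        (Vale.Agent.H79.exists_pderiv_eval_ne_zero_of_stable f φ j hφ 0),
    fun n k M r a P ha haP x₀ hx₀ g hg h φ j hφ =>
      Vale.Agent.H79.exists_equiv_of_stable_multi_one n k M r a P ha haP x₀ hx₀ g hg h φ j hφ⟩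

end Vale.Agent.Results.P295.A0_ThreeClasses
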