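import Mathlib
import Vale.Agent.H79.Quad

/-!
# P295: stable coordinates of total degree at most two are coordinates

For every `n` and `m`, if `f ∈ ℂ[x_1, …, x_n]` has total degree at most `2` and is a coordinate
of `ℂ[x_1, …, x_n, w_1, …, w_m]` (an `m`-stable coordinate), then `f` is a coordinate of
`ℂ[x_1, …, x_n]`.
-/

namespace Vale.Agent.Results.P295.A_Deg2StableCoord

open MvPolynomial

theorem result (n m : ℕ) (f : MvPolynomial (Fin n) ℂ) (hdeg : f.totalDegree ≤ 2)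
    (φ : MvPolynomial (Fin n ⊕ Fin m) ℂ ≃ₐ[ℂ] MvPolynomial (Fin n ⊕ Fin m) ℂ)
    (j : Fin n ⊕ Fin m) (hφ : φ (X j) = rename Sum.inl f) :
    ∃ (ψ : MvPolynomial (Fin n) ℂ ≃ₐ[ℂ] MvPolynomial (Fin n) ℂ) (i : Fin n), ψ (X i) = f :=
  Vale.Agent.H79.exists_equiv_of_totalDegree_le_two f hdeg
    (Vale.Agent.H79.exists_pderiv_eval_ne_zero_of_stable f φ j hφ)

end Vale.Agent.Results.P295.A_Deg2StableCoord
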