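import Mathlib
import Vale.Agent.H79.WHom

/-!
# P295: weighted homogeneous stable coordinates are coordinates

For every `n` and `m`, if `f ∈ ℂ[x_1, …, x_n]` is weighted homogeneous for some positive integer
weights and is a coordinate of `ℂ[x_1, …, x_n, w_1, …, w_m]` (an `m`-stable coordinate), then
`f` is a coordinate of `ℂ[x_1, …, x_n]`.
-/

namespace Vale.Agent.Results.P295.B_WHomStableCoord

open MvPolynomial

theorem result (n m : ℕ) (w : Fin n → ℕ) (hw : ∀ i, 0 < w i) (d : ℕ)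
    (f : MvPolynomial (Fin n) ℂ) (hf : IsWeightedHomogeneous w f d)
    (φ : MvPolynomial (Fin n ⊕ Fin m) ℂ ≃ₐ[ℂ] MvPolynomial (Fin n ⊕ Fin m) ℂ)
    (j : Fin n ⊕ Fin m) (hφ : φ (X j) = rename Sum.inl f) :
    ∃ (ψ : MvPolynomial (Fin n) ℂ ≃ₐ[ℂ] MvPolynomial (Fin n) ℂ) (i : Fin n), ψ (X i) = f :=
  Vale.Agent.H79.exists_equiv_of_isWeightedHomogeneous w hw d f hf
    (Vale.Agent.H79.exists_pderiv_eval_ne_zero_of_stable f φ j hφ 0)

end Vale.Agent.Results.P295.B_WHomStableCoord
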