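import Mathlib
import Vale.Agent.H79.MultiXOne

/-!
# P295: stable coordinates `a(x) y + g(z) + P(x) h(x, z)` are coordinates when `deg g ≤ 2` or
when there is a single `z`-variable

Variables of `R = ℂ[x_1, …, x_n, z_1, …, z_k, y]`, indexed by `Option (Fin n ⊕ Fin k)`:
`y = X none`, `x_i = X (some (inl i))`, `z_j = X (some (inr j))`.  Let `a, P ∈ ℂ[x_1, …, x_n]`
with `a ≠ 0`, `a ∣ P^r` and `a(x₀) = 0` for some point `x₀` (for instance
`a = x_1^{r_1} ⋯ x_n^{r_n}` with all `r_i ≥ 1` and `P = x_1 ⋯ x_n`), let `g ∈ ℂ[z_1, …, z_k]`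
be such that `g` has total degree at most two or `k = 1` (then `g` is an arbitrary polynomial in
one variable), and let `h ∈ ℂ[x, z]` be arbitrary.  Put `f = a(x) y + g(z) + P(x) h(x, z)`.
If `f` is a coordinate of `R[w_1, …, w_M]` (an `M`-stable coordinate of `R`), then `g` is a
coordinate of `ℂ[z_1, …, z_k]` and `f` is a coordinate of `R`.
-/

namespace Vale.Agent.Results.P295.C00_MultiXOneZStableCoord

open MvPolynomial

theorem result (n k M r : ℕ) (a P : MvPolynomial (Fin n) ℂ) (ha : a ≠ 0) (haP : a ∣ P ^ r)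
    (x₀ : Fin n → ℂ) (hx₀ : eval x₀ a = 0)
    (g : MvPolynomial (Fin k) ℂ) (hg : g.totalDegree ≤ 2 ∨ k = 1)
    (h : MvPolynomial (Fin n ⊕ Fin k) ℂ)
    (φ : MvPolynomial (Option (Fin n ⊕ Fin k) ⊕ Fin M) ℂ ≃ₐ[ℂ]
      MvPolynomial (Option (Fin n ⊕ Fin k) ⊕ Fin M) ℂ)
    (j : Option (Fin n ⊕ Fin k) ⊕ Fin M)
    (hφ : φ (X j) = rename Sum.inl (rename some (rename Sum.inl a) * X none
          + rename some (rename Sum.inr g + rename Sum.inl P * h))) :
    (∃ (θ : MvPolynomial (Fin k) ℂ ≃ₐ[ℂ] MvPolynomial (Fin k) ℂ) (i₀ : Fin k), θ (X i₀) = g) ∧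
    ∃ (ψ : MvPolynomial (Option (Fin n ⊕ Fin k)) ℂ ≃ₐ[ℂ]
        MvPolynomial (Option (Fin n ⊕ Fin k)) ℂ) (i : Option (Fin n ⊕ Fin k)),
      ψ (X i) = rename some (rename Sum.inl a) * X none
          + rename some (rename Sum.inr g + rename Sum.inl P * h) :=
  Vale.Agent.H79.exists_equiv_of_stable_multi_one n k M r a P ha haP x₀ hx₀ g hg h φ j hφ

end Vale.Agent.Results.P295.C00_MultiXOneZStableCoord
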