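import Mathlib
import Vale.Agent.H79.XmY

/-!
# P295: stable coordinates of the form `x^m y + b(x, z)` with `deg b(0, z) ≤ 2` are coordinates

Variables of `ℂ[x, y, z_1, …, z_k]` (indexed by `Fin (k + 2)`): `x = X 0`, `y = X 1`,
`z_i = X (i + 1)` for `i = 1, …, k`.  Let `m ≥ 1`, let `b ∈ ℂ[x, z_1, …, z_k]` (indexed by
`Fin (k + 1)`, `x = X 0`) be such that `b(0, z_1, …, z_k)` has total degree at most two, and
put `f = x^m y + b(x, z_1, …, z_k)`.  If `f` is a coordinate of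
`ℂ[x, y, z_1, …, z_k, w_1, …, w_M]` (an `M`-stable coordinate), then `f` is a coordinate of
`ℂ[x, y, z_1, …, z_k]`.  There is no restriction on `k`, on `M`, or on the degree of `b`.
-/

namespace Vale.Agent.Results.P295.C_XmYStableCoord

open MvPolynomial

theorem result (k m M : ℕ) (hm : 1 ≤ m) (b : MvPolynomial (Fin (k + 1)) ℂ)
    (hb : (aeval (Fin.cons 0 X : Fin (k + 1) → MvPolynomial (Fin k) ℂ) b).totalDegree ≤ 2)
    (φ : MvPolynomial (Fin (k + 2) ⊕ Fin M) ℂ ≃ₐ[ℂ] MvPolynomial (Fin (k + 2) ⊕ Fin M) ℂ)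
    (j : Fin (k + 2) ⊕ Fin M)
    (hφ : φ (X j) = rename Sum.inl (X 0 ^ m * X 1 + rename (Fin.succAbove 1) b)) :
    ∃ (ψ : MvPolynomial (Fin (k + 2)) ℂ ≃ₐ[ℂ] MvPolynomial (Fin (k + 2)) ℂ) (i : Fin (k + 2)),
      ψ (X i) = X 0 ^ m * X 1 + rename (Fin.succAbove 1) b :=
  Vale.Agent.H79.exists_equiv_of_stable_xmy k m M hm b hb φ j hφ

end Vale.Agent.Results.P295.C_XmYStableCoord
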